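import Vale.Agent.Lib.P279.Main

/-!
# P279: Nagata's inequality for all multiplicity vectors with small entries

For every `r ≥ 10` and every very general `r`-tuple of distinct points of the complex projective
plane: every nonzero form `F` of degree `d ≥ 1` and all `m i` with `mult_{p i} F ≥ m i` and
`(13 * m i + 8) ^ 2 ≤ r` satisfy `∑ m i < d * √r`.

Definitions: `Vale/Agent/Lib/P279/Defs.lean`.  Proof: for each `(d, m)` violating the inequality the
points are specialized to horizontal lines; the sums of the multiplicities on the lines follow an
arithmetic progression `d + 1, d, d - 1, …` (possible by a balancing lemma), and the lines split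
off one after the other, cyclically, until the degree is exhausted.
-/

namespace Vale.Agent.Results.P279.SmallMultiplicities

open Vale.Agent.Lib.P279

theorem result (r : ℕ) (hr : 10 ≤ r) :
    VeryGeneral r (fun p => ∀ (d : ℕ) (F : MvPolynomial (Fin 3) ℂ) (m : Fin r → ℕ), 1 ≤ d →
      F ≠ 0 → F.IsHomogeneous d → (∀ i, MultGE F (p i) (m i)) →
      (∀ i, (13 * m i + 8) ^ 2 ≤ r) → (∑ i, (m i : ℝ)) < d * Real.sqrt r) :=
  nagata_small_mult r hr

end Vale.Agent.Results.P279.SmallMultiplicities
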